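import Vale.Agent.P038.Rank

/-!
Counting ordered pairs of vertices, and the rank inequality for four sets of pairs.
-/

namespace Vale.Agent.P038

open Finset Matrix

variable {V : Type*} [Fintype V]

open Classical in
/-- The number of ordered pairs satisfying a relation. -/
noncomputable def cnt (P : V → V → Prop) : ℕ :=
  (univ.filter fun c : V × V => P c.1 c.2).card

open Classical in
theorem cnt_eq_card (P : V → V → Prop) : cnt P = Fintype.card {c : V × V // P c.1 c.2} := by
  rw [Fintype.card_subtype, cnt]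

open Classical in
theorem cnt_rows (P : V → V → Prop) : cnt P = ∑ x, (univ.filter (P x)).card := by
  simp only [cnt, Finset.card_filter, Fintype.sum_prod_type]

open Classical in
theorem cnt_swap (P : V → V → Prop) : cnt (fun x y => P y x) = cnt P := by
  simp only [cnt, Finset.card_filter, Fintype.sum_prod_type]
  exact Finset.sum_comm

theorem cnt_mono {P Q : V → V → Prop} (h : ∀ x y, P x y → Q x y) : cnt P ≤ cnt Q := by
  classical
  unfold cnt
  apply Finset.card_le_card
  intro c
  simp only [Finset.mem_filter, Finset.mem_univ, true_and]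
  exact h _ _

theorem cnt_congr {P Q : V → V → Prop} (h : ∀ x y, P x y ↔ Q x y) : cnt P = cnt Q :=
  le_antisymm (cnt_mono fun x y => (h x y).1) (cnt_mono fun x y => (h x y).2)

theorem cnt_or_and (P Q : V → V → Prop) :
    cnt (fun x y => P x y ∨ Q x y) + cnt (fun x y => P x y ∧ Q x y) = cnt P + cnt Q := by
  classical
  simp only [cnt, Finset.card_filter, ← Finset.sum_add_distrib]
  refine Finset.sum_congr rfl fun c _ => ?_
  by_cases h1 : P c.1 c.2 <;> by_cases h2 : Q c.1 c.2 <;> simp [h1, h2]

theorem cnt_false : cnt (fun _ _ : V => False) = 0 := by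
  simp [cnt]

theorem cnt_le_add {P Q R : V → V → Prop} (h : ∀ x y, P x y → Q x y ∨ R x y) :
    cnt P ≤ cnt Q + cnt R := by
  have h1 := cnt_mono h
  have h2 := cnt_or_and Q R
  omega

theorem add_le_cnt {P Q R : V → V → Prop} (hQ : ∀ x y, Q x y → P x y) (hR : ∀ x y, R x y → P x y)
    (hd : ∀ x y, Q x y → R x y → False) : cnt Q + cnt R ≤ cnt P := by
  have h1 : cnt (fun x y => Q x y ∨ R x y) ≤ cnt P :=
    cnt_mono fun x y h => h.elim (hQ x y) (hR x y)
  have h2 := cnt_or_and Q R
  have h3 : cnt (fun x y => Q x y ∧ R x y) ≤ cnt (fun _ _ : V => False) :=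
    cnt_mono fun x y h => hd x y h.1 h.2
  rw [cnt_false] at h3
  omega

theorem cnt_row (x : V) (A : Finset V) : cnt (fun x' z => x' = x ∧ z ∈ A) = A.card := by
  classical
  rw [cnt_rows, Finset.sum_eq_single x]
  · congr 1
    ext z
    simp
  · intro y _ hy
    simp [hy]
  · simp

theorem cnt_true : cnt (fun _ _ : V => True) = Fintype.card V * Fintype.card V := by
  simp [cnt]

theorem cnt_diag : cnt (fun x y : V => x = y) = Fintype.card V := by
  classical
  rw [cnt_rows]
  have : ∀ x : V, (univ.filter (fun y => x = y)).card = 1 := by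
    intro x
    rw [Finset.card_eq_one]
    exact ⟨x, by ext y; simp [eq_comm]⟩
  simp only [Finset.card_univ.symm, Finset.card_eq_sum_ones (univ : Finset V)]
  exact Finset.sum_congr rfl fun x _ => by convert this x

open Classical in
theorem sum_subtype_mul {α K : Type*} [Fintype α] [Semiring K] (P : α → Prop)
    (v : {c // P c} → K) (g : α → K) :
    ∑ r, v r * g r = ∑ c, (if h : P c then v ⟨c, h⟩ else 0) * g c := by
  rw [← Fintype.sum_subtype_add_sum_subtype (fun c => P c)
    (fun c => (if h : P c then v ⟨c, h⟩ else 0) * g c)]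
  have h2 : ∑ i : {x // ¬ P x}, (if h : P i then v ⟨i, h⟩ else 0) * g i = 0 := by
    refine Finset.sum_eq_zero fun i _ => ?_
    rw [dif_neg i.2, zero_mul]
  rw [h2, add_zero]
  refine Finset.sum_congr rfl fun i _ => ?_
  rw [dif_pos i.2]

open Classical in
/-- Row-wise injectivity of the generic matrix on a set of pairs satisfying Hall's condition. -/
theorem cell_inj (G : V → V → Prop) (Rr M : V → V → Prop)
    (hR : ∀ x, ∀ A : Finset V, (∀ z ∈ A, Rr x z) →
      A.card ≤ (univ.filter (fun t => M x t ∧ ∃ z ∈ A, G z t)).card)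
    (v : {c : V × V // Rr c.1 c.2} → GK V)
    (hv : ∀ x t, M x t → ∑ r, v r * (if r.1.1 = x then gen G r.1.2 t else 0) = 0) : v = 0 := by
  ext r
  obtain ⟨⟨x, z⟩, hr⟩ := r
  have key := gen_inj G (univ.filter (Rr x)) (univ.filter (M x)) (by
      intro A hA
      have := hR x A (fun z hz => by simpa using hA hz)
      rwa [Finset.filter_filter]) (fun z => if h : Rr x z then v ⟨(x, z), h⟩ else 0) (by
      intro z hz
      have : ¬ Rr x z := by simpa using hz
      simp [this]) (by
      intro t ht
      have h1 := hv x t (by simpa using ht)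
      rw [sum_subtype_mul (fun c : V × V => Rr c.1 c.2) v
        (fun c => if c.1 = x then gen G c.2 t else 0), Fintype.sum_prod_type,
        Finset.sum_eq_single x] at h1
      · simpa using h1
      · intro y _ hy
        simp [hy]
      · simp)
  have := congrFun key z
  simpa [hr] using this

open Classical in
theorem sum_cell (M : V → V → Prop) {K : Type*} [Semiring K] (x t : V) (f g : V → K)
    (h : M x t ∨ f t * g x = 0) :
    ∑ q : {c : V × V // M c.1 c.2}, (if x = q.1.1 then f q.1.2 else 0) *
      (if q.1.2 = t then g q.1.1 else 0) = f t * g x := by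
  by_cases hM : M x t
  · rw [Finset.sum_eq_single ⟨(x, t), hM⟩]
    · simp
    · rintro ⟨⟨a, b⟩, hq⟩ _ hne
      by_cases h1 : x = a
      · by_cases h2 : b = t
        · subst h1 h2
          exact absurd rfl hne
        · simp [h2]
      · simp [h1]
    · simp
  · rw [h.resolve_left hM]
    refine Finset.sum_eq_zero ?_
    rintro ⟨⟨a, b⟩, hq⟩ _
    by_cases h1 : x = a
    · by_cases h2 : b = t
      · subst h1 h2
        exact absurd hq hM
      · simp [h2]
    · simp [h1]

open Classical in
/-- The rank inequality. Pairs of `Rr` are read as (row, column), pairs of `Ss` as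
(column, row); `M1` collects the sink corners and `M0` the source corners. -/
theorem cell_rank (G : V → V → Prop) (Rr Ss M0 M1 : V → V → Prop)
    (hR : ∀ x, ∀ A : Finset V, (∀ z ∈ A, Rr x z) →
      A.card ≤ (univ.filter (fun t => M1 x t ∧ ∃ z ∈ A, G z t)).card)
    (hS : ∀ t, ∀ A : Finset V, (∀ u ∈ A, Ss t u) →
      A.card ≤ (univ.filter (fun x => M1 x t ∧ ∃ u ∈ A, G u x)).card)
    (h : ∀ x z t u, Rr x z → Ss t u → G u x → G z t → M1 x t ∧ M0 u z) :
    cnt Rr + cnt Ss ≤ cnt M1 + cnt M0 := by
  simp only [cnt_eq_card]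
  let P : Matrix {c : V × V // Rr c.1 c.2} {c : V × V // M1 c.1 c.2} (GK V) :=
    Matrix.of fun r q => if r.1.1 = q.1.1 then gen G r.1.2 q.1.2 else 0
  let Q : Matrix {c : V × V // M1 c.1 c.2} {c : V × V // Ss c.1 c.2} (GK V) :=
    Matrix.of fun q s => if q.1.2 = s.1.1 then gen G s.1.2 q.1.1 else 0
  let P' : Matrix {c : V × V // Rr c.1 c.2} {c : V × V // M0 c.1 c.2} (GK V) :=
    Matrix.of fun r p => if p.1.2 = r.1.2 then gen G p.1.1 r.1.1 else 0
  let Q' : Matrix {c : V × V // M0 c.1 c.2} {c : V × V // Ss c.1 c.2} (GK V) :=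
    Matrix.of fun p s => if s.1.2 = p.1.1 then gen G p.1.2 s.1.1 else 0
  refine card_le_of_square P Q P' Q' ?_ ?_ ?_
  · ext ⟨⟨x, z⟩, hr⟩ ⟨⟨t, u⟩, hs⟩
    have hz : ¬ (G u x ∧ G z t) → gen G z t * gen G u x = 0 := by
      intro hn
      by_cases h1 : G u x
      · have h2 : ¬ G z t := fun h2 => hn ⟨h1, h2⟩
        rw [gen_eq_zero h2, zero_mul]
      · rw [gen_eq_zero h1, mul_zero]
    have e1 := sum_cell M1 x t (fun b => gen G z b) (fun a => gen G u a) (by
      by_cases hn : G u x ∧ G z t
      · exact Or.inl (h x z t u hr hs hn.1 hn.2).1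
      · exact Or.inr (hz hn))
    have e2 := sum_cell M0 u z (fun b => gen G b t) (fun a => gen G a x) (by
      by_cases hn : G u x ∧ G z t
      · exact Or.inl (h x z t u hr hs hn.1 hn.2).2
      · exact Or.inr (hz hn))
    simp only [Matrix.mul_apply, P, Q, P', Q', Matrix.of_apply]
    rw [e1, ← e2]
    exact Finset.sum_congr rfl fun p _ => mul_comm _ _
  · intro v hv
    refine cell_inj G Rr M1 hR v fun x t hM => ?_
    have := congrFun hv ⟨(x, t), hM⟩
    simpa only [Matrix.vecMul, dotProduct, P, Matrix.of_apply, Pi.zero_apply] using this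
  · intro v hv
    refine cell_inj G Ss (fun t x => M1 x t) hS v fun t x hM => ?_
    have := congrFun hv ⟨(x, t), hM⟩
    simp only [Matrix.mulVec, dotProduct, Q, Matrix.of_apply, Pi.zero_apply] at this
    refine Eq.trans (Finset.sum_congr rfl fun s _ => ?_) this
    rw [mul_comm]
    simp only [eq_comm]

end Vale.Agent.P038
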