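import Vale.Agent.P038.Cell

/-!
The descent lemma: from a pair of relations crossing only on the diagonal one obtains an
admissible pair of no larger total boundary.
-/

namespace Vale.Agent.P038

open Finset

variable {V : Type*} [Fintype V]

/-- One more step along `G` in the second coordinate. -/
def nxt (G R : V → V → Prop) : V → V → Prop := fun x y => ∃ z, R x z ∧ G z y

/-- The total size of the boundaries of the rows of `R`. -/
noncomputable def cost (G R : V → V → Prop) : ℕ := cnt fun x y => nxt G R x y ∧ ¬ R x y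

/-- Admissible pairs. -/
def Adm (G R S : V → V → Prop) : Prop :=
  (∀ x, R x x) ∧ (∀ x, S x x) ∧ ∀ x t, nxt G R x t → nxt G S t x → x = t

/-- Pairs of least total boundary among the admissible pairs below two given relations. -/
def Extr (G R' S' R S : V → V → Prop) : Prop :=
  Adm G R S ∧ (∀ x z, R x z → R' x z) ∧ (∀ x z, S x z → S' x z) ∧
    ∀ R2 S2, Adm G R2 S2 → (∀ x z, R2 x z → R' x z) → (∀ x z, S2 x z → S' x z) →
      cost G R + cost G S ≤ cost G R2 + cost G S2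

omit [Fintype V] in
theorem Adm.symm {G R S : V → V → Prop} (h : Adm G R S) : Adm G S R :=
  ⟨h.2.1, h.1, fun x t h1 h2 => (h.2.2 t x h2 h1).symm⟩

theorem Extr.symm {G R' S' R S : V → V → Prop} (h : Extr G R' S' R S) : Extr G S' R' S R := by
  refine ⟨h.1.symm, h.2.2.1, h.2.1, fun R2 S2 h1 h2 h3 => ?_⟩
  have := h.2.2.2 S2 R2 h1.symm h3 h2
  omega

omit [Fintype V] in
theorem le_nxt {G R : V → V → Prop} (hG : ∀ x, G x x) {x y : V} (h : R x y) : nxt G R x y :=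
  ⟨y, h, hG y⟩

theorem cnt_nxt {G : V → V → Prop} (hG : ∀ x, G x x) (R : V → V → Prop) :
    cnt (nxt G R) = cnt R + cost G R := by
  apply le_antisymm
  · exact cnt_le_add fun x y h => by
      by_cases h1 : R x y
      · exact Or.inl h1
      · exact Or.inr ⟨h, h1⟩
  · exact add_le_cnt (fun x y h => le_nxt hG h) (fun x y h => h.1) (fun x y h1 h2 => h2.2 h1)

theorem cnt_cross (Y I : V → V → Prop) (hY : ∀ x, Y x x) (hI : ∀ x, I x x)
    (h : ∀ x t, Y x t → I t x → x = t) :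
    cnt Y + cnt I + cnt (fun u z => ¬ Y u z ∧ ¬ I z u) =
      Fintype.card V * Fintype.card V + Fintype.card V := by
  have h1 := cnt_or_and Y (fun x t => I t x)
  have h2 : cnt (fun x t => Y x t ∧ I t x) = Fintype.card V := by
    rw [← cnt_diag]
    exact cnt_congr fun x t => ⟨fun h' => h x t h'.1 h'.2, fun h' => h' ▸ ⟨hY x, hI x⟩⟩
  have h3 := cnt_or_and (fun x t => Y x t ∨ I t x) (fun u z => ¬ Y u z ∧ ¬ I z u)
  have h4 : cnt (fun x t => (Y x t ∨ I t x) ∨ (¬ Y x t ∧ ¬ I t x)) =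
      Fintype.card V * Fintype.card V := by
    rw [← cnt_true]
    exact cnt_congr fun x t => by tauto
  have h5 : cnt (fun x t => (Y x t ∨ I t x) ∧ (¬ Y x t ∧ ¬ I t x)) = 0 := by
    rw [← cnt_false (V := V)]
    exact cnt_congr fun x t => by tauto
  have h6 := cnt_swap I
  omega

open Classical in
theorem Extr.rem {G R' S' R S : V → V → Prop} (hG : ∀ x, G x x) (h : Extr G R' S' R S) (t : V)
    (Q : Finset V) (hQ : ∀ x ∈ Q, nxt G S t x ∧ ¬ G t x) :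
    Q.card ≤ (univ.filter fun u => S t u ∧ ∃ x ∈ Q, G u x).card := by
  let S2 : V → V → Prop := fun t' u => S t' u ∧ ¬ (t' = t ∧ ∃ x ∈ Q, G u x)
  have hA : Adm G R S2 := by
    refine ⟨h.1.1, fun x => ⟨h.1.2.1 x, ?_⟩, fun x t' h1 h2 => h.1.2.2 x t' h1 ?_⟩
    · rintro ⟨rfl, y, hy, hxy⟩
      exact (hQ y hy).2 hxy
    · obtain ⟨z, hz, hzx⟩ := h2
      exact ⟨z, hz.1, hzx⟩
  have h1 := h.2.2.2 R S2 hA h.2.1 fun x z hz => h.2.2.1 x z hz.1
  have h2 : cnt S ≤ cnt S2 + cnt (fun t' u => t' = t ∧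
      u ∈ univ.filter fun u => S t u ∧ ∃ x ∈ Q, G u x) := by
    refine cnt_le_add fun t' u hS => ?_
    by_cases hc : t' = t ∧ ∃ x ∈ Q, G u x
    · refine Or.inr ⟨hc.1, ?_⟩
      simp only [Finset.mem_filter, Finset.mem_univ, true_and]
      exact ⟨hc.1 ▸ hS, hc.2⟩
    · exact Or.inl ⟨hS, hc⟩
  have h3 : cnt (nxt G S2) + cnt (fun t' x => t' = t ∧ x ∈ Q) ≤ cnt (nxt G S) := by
    refine add_le_cnt ?_ ?_ ?_
    · rintro t' x ⟨z, hz, hzx⟩
      exact ⟨z, hz.1, hzx⟩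
    · rintro t' x ⟨rfl, hx⟩
      exact (hQ x hx).1
    · rintro t' x ⟨z, hz, hzx⟩ ⟨ht, hx⟩
      exact hz.2 ⟨ht, x, hx, hzx⟩
  rw [cnt_row] at h2 h3
  rw [cnt_nxt hG, cnt_nxt hG] at h3
  omega

open Classical in
theorem Extr.add {G R' S' R S : V → V → Prop} (hG : ∀ x, G x x) (h : Extr G R' S' R S) (x : V)
    (A : Finset V) (hA : ∀ z ∈ A, R' x z ∧ ¬ R x z ∧ ∀ t, G z t → ¬ nxt G S t x) :
    A.card ≤ (univ.filter fun t => (¬ nxt G R x t ∧ ¬ nxt G S t x) ∧ ∃ z ∈ A, G z t).card := by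
  let R2 : V → V → Prop := fun x' z => R x' z ∨ (x' = x ∧ z ∈ A)
  have hAd : Adm G R2 S := by
    refine ⟨fun y => Or.inl (h.1.1 y), h.1.2.1, ?_⟩
    rintro y t ⟨z, hz | ⟨rfl, hz⟩, hzt⟩ h2
    · exact h.1.2.2 y t ⟨z, hz, hzt⟩ h2
    · exact absurd h2 ((hA z hz).2.2 t hzt)
  have h1 := h.2.2.2 R2 S hAd (by
    rintro y z (hz | ⟨rfl, hz⟩)
    · exact h.2.1 y z hz
    · exact (hA z hz).1) h.2.2.1
  have h2 : cnt R + cnt (fun x' z => x' = x ∧ z ∈ A) ≤ cnt R2 := by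
    refine add_le_cnt (fun _ _ h => Or.inl h) (fun _ _ h => Or.inr h) ?_
    rintro y z hz ⟨rfl, hzA⟩
    exact (hA z hzA).2.1 hz
  have h3 : cnt (nxt G R2) ≤ cnt (nxt G R) + cnt (fun x' t => x' = x ∧
      t ∈ univ.filter fun t => (¬ nxt G R x t ∧ ¬ nxt G S t x) ∧ ∃ z ∈ A, G z t) := by
    refine cnt_le_add ?_
    rintro y t ⟨z, hz | ⟨rfl, hz⟩, hzt⟩
    · exact Or.inl ⟨z, hz, hzt⟩
    · by_cases hc : nxt G R y t
      · exact Or.inl hc
      · refine Or.inr ⟨rfl, ?_⟩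
        simp only [Finset.mem_filter, Finset.mem_univ, true_and]
        exact ⟨⟨hc, (hA z hz).2.2 t hzt⟩, z, hz, hzt⟩
  rw [cnt_row] at h2 h3
  rw [cnt_nxt hG, cnt_nxt hG] at h3
  omega

open Classical in
theorem union_hall (G B : V → V → Prop) (X : Finset V) (T : Finset V)
    (hall : ∀ t ∈ T, ∀ Q ⊆ X, (∀ x ∈ Q, nxt G B t x) →
      Q.card ≤ (univ.filter fun u => B t u ∧ ∃ x ∈ Q, G u x).card) :
    (X.filter fun x => ∃ t ∈ T, nxt G B t x).card ≤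
      (univ.filter fun u => (∃ t ∈ T, B t u) ∧ ∃ x ∈ X, G u x).card := by
  induction T using Finset.induction_on with
  | empty => simp
  | insert t T ht ih =>
    have h1 := ih fun t' ht' => hall t' (Finset.mem_insert_of_mem ht')
    let Q := X.filter fun x => nxt G B t x ∧ ¬ ∃ t' ∈ T, nxt G B t' x
    have h2 := hall t (Finset.mem_insert_self _ _) Q (Finset.filter_subset _ _)
      fun x hx => (Finset.mem_filter.mp hx).2.1
    have h3 : (X.filter fun x => ∃ t' ∈ insert t T, nxt G B t' x) ⊆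
        (X.filter fun x => ∃ t' ∈ T, nxt G B t' x) ∪ Q := by
      intro x hx
      simp only [Finset.mem_filter, Finset.mem_union, Finset.mem_insert, Q] at hx ⊢
      obtain ⟨hxX, t', ht', hn⟩ := hx
      by_cases hc : ∃ t' ∈ T, nxt G B t' x
      · exact Or.inl ⟨hxX, hc⟩
      · rcases ht' with rfl | ht'
        · exact Or.inr ⟨hxX, hn, hc⟩
        · exact absurd ⟨t', ht', hn⟩ hc
    have h4 : Disjoint (univ.filter fun u => (∃ t ∈ T, B t u) ∧ ∃ x ∈ X, G u x)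
        (univ.filter fun u => B t u ∧ ∃ x ∈ Q, G u x) := by
      rw [Finset.disjoint_filter]
      rintro u _ ⟨⟨t', ht', hB⟩, _⟩ ⟨_, x, hx, hux⟩
      exact (Finset.mem_filter.mp hx).2.2 ⟨t', ht', u, hB, hux⟩
    have h5 : (univ.filter fun u => (∃ t ∈ T, B t u) ∧ ∃ x ∈ X, G u x) ∪
        (univ.filter fun u => B t u ∧ ∃ x ∈ Q, G u x) ⊆
        univ.filter fun u => (∃ t' ∈ insert t T, B t' u) ∧ ∃ x ∈ X, G u x := by
      intro u hu
      simp only [Finset.mem_filter, Finset.mem_union, Finset.mem_insert, Finset.mem_univ,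
        true_and, Q] at hu ⊢
      rcases hu with ⟨⟨t', ht', hB⟩, hx⟩ | ⟨hB, x, hx, hux⟩
      · exact ⟨⟨t', Or.inr ht', hB⟩, hx⟩
      · exact ⟨⟨t, Or.inl rfl, hB⟩, x, hx.1, hux⟩
    have h6 := Finset.card_le_card h3
    have h7 := Finset.card_union_le (X.filter fun x => ∃ t' ∈ T, nxt G B t' x) Q
    have h8 := Finset.card_le_card h5
    rw [Finset.card_union_of_disjoint h4] at h8
    omega

open Classical in
theorem Extr.one {G Y I R S : V → V → Prop} (hG : ∀ x, G x x) (hI : ∀ x y, G x y → I x y)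
    (h : Extr G (fun x z => z = x ∨ ¬ nxt G I z x) (fun t u => u = t ∨ ¬ nxt G Y u t) R S) :
    cnt (fun x z => ((z = x ∨ ¬ nxt G I z x) ∧ ¬ R x z) ∧ ∃ t, G z t ∧ nxt G S t x) ≤
      cnt (fun u z => (¬ Y u z ∧ ¬ I z u) ∧ ∃ t, G z t ∧ S t u) := by
  rw [← cnt_swap, ← cnt_swap (fun u z => (¬ Y u z ∧ ¬ I z u) ∧ ∃ t, G z t ∧ S t u), cnt_rows,
    cnt_rows]
  refine Finset.sum_le_sum fun z _ => ?_
  let X := univ.filter fun x => (z = x ∨ ¬ nxt G I z x) ∧ ¬ R x z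
  have hX : ∀ x ∈ X, ¬ nxt G I z x := by
    intro x hx
    obtain ⟨h1 | h1, h2⟩ := (Finset.mem_filter.mp hx).2
    · exact absurd (h1 ▸ h.1.1 z) h2
    · exact h1
  have key := union_hall G S X (univ.filter fun t => G z t) (by
    intro t ht Q hQ hn
    refine h.rem hG t Q fun x hx => ⟨hn x hx, fun htx => ?_⟩
    exact hX x (hQ hx) ⟨t, hI z t (Finset.mem_filter.mp ht).2, htx⟩)
  refine le_trans (le_trans (Finset.card_le_card ?_) key) (Finset.card_le_card ?_)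
  · intro x hx
    simp only [Finset.mem_filter, Finset.mem_univ, true_and, X] at hx ⊢
    exact hx
  · intro u hu
    simp only [Finset.mem_filter, Finset.mem_univ, true_and] at hu ⊢
    obtain ⟨⟨t, hzt, hS⟩, x, hx, hux⟩ := hu
    have h1 : ¬ I z u := fun h1 => hX x (by simpa [X] using hx) ⟨u, h1, hux⟩
    refine ⟨⟨fun h2 => ?_, h1⟩, t, hzt, hS⟩
    rcases h.2.2.1 t u hS with h3 | h3
    · exact h1 (h3 ▸ hI z t hzt)
    · exact h3 ⟨z, h2, hzt⟩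

theorem exists_extr (G R' S' : V → V → Prop) (hA : ∀ x y, G x y → G y x → x = y)
    (hR : ∀ x, R' x x) (hS : ∀ x, S' x x) : ∃ R S, Extr G R' S' R S := by
  classical
  have hex : ∃ n, ∃ R S, Adm G R S ∧ (∀ x z, R x z → R' x z) ∧ (∀ x z, S x z → S' x z) ∧
      cost G R + cost G S = n := by
    refine ⟨_, Eq, Eq, ⟨fun _ => rfl, fun _ => rfl, ?_⟩, ?_, ?_, rfl⟩
    · rintro x t ⟨_, rfl, h1⟩ ⟨_, rfl, h2⟩
      exact hA _ _ h1 h2
    · rintro x _ rfl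
      exact hR x
    · rintro x _ rfl
      exact hS x
  obtain ⟨R, S, h1, h2, h3, h4⟩ := Nat.find_spec hex
  refine ⟨R, S, h1, h2, h3, fun R2 S2 k1 k2 k3 => ?_⟩
  rw [h4]
  exact Nat.find_min' hex ⟨R2, S2, k1, k2, k3, rfl⟩

theorem descent (G Y I : V → V → Prop) (hG : ∀ x, G x x) (hA : ∀ x y, G x y → G y x → x = y)
    (hY : ∀ x y, G x y → Y x y) (hI : ∀ x y, G x y → I x y)
    (hYI : ∀ x t, Y x t → I t x → x = t) :
    ∃ R S, Adm G R S ∧ cost G R + cost G S ≤ cost G Y + cost G I := by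
  classical
  obtain ⟨R, S, h⟩ := exists_extr G (fun x z => z = x ∨ ¬ nxt G I z x)
    (fun t u => u = t ∨ ¬ nxt G Y u t) hA (fun _ => Or.inl rfl) (fun _ => Or.inl rfl)
  refine ⟨R, S, h.1, ?_⟩
  have hYr : ∀ x, Y x x := fun x => hY x x (hG x)
  have hIr : ∀ x, I x x := fun x => hI x x (hG x)
  have c1 := cnt_cross Y I hYr hIr hYI
  have c2 := cnt_cross (nxt G R) (nxt G S) (fun x => le_nxt hG (h.1.1 x))
    (fun x => le_nxt hG (h.1.2.1 x)) h.1.2.2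
  have c3 := cnt_cross (fun x z => z = x ∨ ¬ nxt G I z x) (nxt G I) (fun _ => Or.inl rfl)
    (fun x => le_nxt hG (hIr x)) (fun x t h1 h2 => (h1.resolve_right (not_not.mpr h2)).symm)
  have c4 := cnt_cross (fun t u => u = t ∨ ¬ nxt G Y u t) (nxt G Y) (fun _ => Or.inl rfl)
    (fun x => le_nxt hG (hYr x)) (fun x t h1 h2 => (h1.resolve_right (not_not.mpr h2)).symm)
  have c3' : cnt (fun u z => ¬ (z = u ∨ ¬ nxt G I z u) ∧ ¬ nxt G I z u) = 0 := by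
    rw [← cnt_false (V := V)]
    exact cnt_congr fun x t => by tauto
  have c4' : cnt (fun u z => ¬ (z = u ∨ ¬ nxt G Y z u) ∧ ¬ nxt G Y z u) = 0 := by
    rw [← cnt_false (V := V)]
    exact cnt_congr fun x t => by tauto
  have d1 : cnt (fun x z => z = x ∨ ¬ nxt G I z x) ≤
      cnt R + cnt (fun x z => (z = x ∨ ¬ nxt G I z x) ∧ ¬ R x z) :=
    cnt_le_add fun x z => by tauto
  have d2 : cnt (fun t u => u = t ∨ ¬ nxt G Y u t) ≤
      cnt S + cnt (fun t u => (u = t ∨ ¬ nxt G Y u t) ∧ ¬ S t u) :=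
    cnt_le_add fun x z => by tauto
  have d3 : cnt (fun x z => (z = x ∨ ¬ nxt G I z x) ∧ ¬ R x z) ≤
      cnt (fun x z => ((z = x ∨ ¬ nxt G I z x) ∧ ¬ R x z) ∧ ∃ t, G z t ∧ nxt G S t x) +
      cnt (fun x z => (z = x ∨ ¬ nxt G I z x) ∧ ¬ R x z ∧ ∀ t, G z t → ¬ nxt G S t x) := by
    refine cnt_le_add fun x z hz => ?_
    by_cases hc : ∃ t, G z t ∧ nxt G S t x
    · exact Or.inl ⟨hz, hc⟩
    · exact Or.inr ⟨hz.1, hz.2, fun t h1 h2 => hc ⟨t, h1, h2⟩⟩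
  have d4 : cnt (fun t u => (u = t ∨ ¬ nxt G Y u t) ∧ ¬ S t u) ≤
      cnt (fun t u => ((u = t ∨ ¬ nxt G Y u t) ∧ ¬ S t u) ∧ ∃ x, G u x ∧ nxt G R x t) +
      cnt (fun t u => (u = t ∨ ¬ nxt G Y u t) ∧ ¬ S t u ∧ ∀ x, G u x → ¬ nxt G R x t) := by
    refine cnt_le_add fun x z hz => ?_
    by_cases hc : ∃ t, G z t ∧ nxt G R t x
    · exact Or.inl ⟨hz, hc⟩
    · exact Or.inr ⟨hz.1, hz.2, fun t h1 h2 => hc ⟨t, h1, h2⟩⟩
  have e1 := h.one hG hI
  have e2 := h.symm.one hG hY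
  rw [← cnt_swap (fun z u => (¬ I z u ∧ ¬ Y u z) ∧ ∃ x, G u x ∧ R x z)] at e2
  have e3 := cell_rank G
    (fun x z => (z = x ∨ ¬ nxt G I z x) ∧ ¬ R x z ∧ ∀ t, G z t → ¬ nxt G S t x)
    (fun t u => (u = t ∨ ¬ nxt G Y u t) ∧ ¬ S t u ∧ ∀ x, G u x → ¬ nxt G R x t)
    (fun u z => (¬ Y u z ∧ ¬ I z u) ∧ (¬ ∃ t, G z t ∧ S t u) ∧ ¬ ∃ x, G u x ∧ R x z)
    (fun x t => ¬ nxt G R x t ∧ ¬ nxt G S t x)
    (fun x A hA' => by convert h.add hG x A hA')
    (fun t A hA' => by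
      have := h.symm.add hG t A hA'
      refine this.trans (Finset.card_le_card ?_)
      intro x hx
      simp only [Finset.mem_filter, Finset.mem_univ, true_and] at hx ⊢
      exact ⟨hx.1.symm, hx.2⟩)
    (by
      rintro x z t u ⟨r1, r2, r3⟩ ⟨s1, s2, s3⟩ hux hzt
      have r4 : ¬ nxt G I z x := r1.resolve_left fun e => r2 (e ▸ h.1.1 x)
      have s4 : ¬ nxt G Y u t := s1.resolve_left fun e => s2 (e ▸ h.1.2.1 t)
      refine ⟨⟨s3 x hux, r3 t hzt⟩, ⟨fun e => s4 ⟨z, e, hzt⟩, fun e => r4 ⟨u, e, hux⟩⟩, ?_, ?_⟩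
      · rintro ⟨t', h1, h2⟩
        exact r3 t' h1 ⟨u, h2, hux⟩
      · rintro ⟨x', h1, h2⟩
        exact s3 x' h1 ⟨z, h2, hzt⟩)
  have f1 : cnt (fun u z => (¬ Y u z ∧ ¬ I z u) ∧ ∃ t, G z t ∧ S t u) +
      cnt (fun u z => (¬ I z u ∧ ¬ Y u z) ∧ ∃ x, G u x ∧ R x z) ≤
      cnt (fun u z => (¬ Y u z ∧ ¬ I z u) ∧
        ((∃ t, G z t ∧ S t u) ∨ ∃ x, G u x ∧ R x z)) := by
    refine add_le_cnt (fun u z h => ⟨h.1, Or.inl h.2⟩) (fun u z h => ⟨h.1.symm, Or.inr h.2⟩) ?_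
    rintro u z ⟨⟨k1, k2⟩, t, hzt, hS⟩ ⟨_, x, hux, hR⟩
    have e : x = t := h.1.2.2 x t ⟨z, hR, hzt⟩ ⟨u, hS, hux⟩
    subst e
    have e' : x = z := h.1.2.2 x z (le_nxt hG hR) ⟨z, h.1.2.1 z, hzt⟩
    subst e'
    exact k1 (hY u x hux)
  have f2 : cnt (fun u z => (¬ Y u z ∧ ¬ I z u) ∧
        ((∃ t, G z t ∧ S t u) ∨ ∃ x, G u x ∧ R x z)) +
      cnt (fun u z => (¬ Y u z ∧ ¬ I z u) ∧ (¬ ∃ t, G z t ∧ S t u) ∧ ¬ ∃ x, G u x ∧ R x z) ≤
      cnt (fun u z => ¬ Y u z ∧ ¬ I z u) :=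
    add_le_cnt (fun _ _ h => h.1) (fun _ _ h => h.1) fun _ _ h1 h2 => h1.2.elim h2.2.1 h2.2.2
  rw [cnt_nxt hG, cnt_nxt hG] at c2
  rw [cnt_nxt hG] at c3 c4
  omega

end Vale.Agent.P038
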