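import Vale.Agent.P038.Descent

/-!
Pruning in a counterexample with fewest arcs, and the end of the proof.
-/

namespace Vale.Agent.P038

open Finset

variable {V : Type*} [Fintype V]

open Classical in
/-- Vertices with at least as many second out-neighbours as first out-neighbours. -/
def Sey (A : V → V → Prop) (v : V) : Prop :=
  (univ.filter fun u => A v u).card ≤
    (univ.filter fun w => w ≠ v ∧ ¬ A v w ∧ ∃ u, A v u ∧ A u w).card

open Classical in
/-- Closed out-neighbourhood of a set of vertices. -/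
noncomputable def dil (A : V → V → Prop) (S : Finset V) : Finset V :=
  univ.filter fun y => ∃ z ∈ S, z = y ∨ A z y

theorem mem_dil {A : V → V → Prop} {S : Finset V} {y : V} :
    y ∈ dil A S ↔ ∃ z ∈ S, z = y ∨ A z y := by
  simp [dil]

open Classical in
theorem prune (A : V → V → Prop) (hA : ∀ u v, A u v → ¬ A v u) (hno : ∀ v, ¬ Sey A v)
    (ih : ∀ A' : V → V → Prop, (∀ u v, A' u v → ¬ A' v u) → cnt A' < cnt A → ∃ v, Sey A' v)
    (S T : Finset V) (hT : T ⊆ dil A S \ S) (hne : T ≠ dil A S \ S)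
    (hmin : ∀ T' ⊆ dil A S \ S, (dil A T \ S).card + 2 * T'.card ≤ (dil A T' \ S).card + 2 * T.card) :
    False := by
  let A' : V → V → Prop := fun x y => A x y ∧ ¬ (x ∈ S ∧ y ∉ S ∧ y ∉ T)
  have hlt : cnt A' < cnt A := by
    obtain ⟨y, hy, hyT⟩ := Finset.exists_of_ssubset (Finset.ssubset_iff_subset_ne.mpr ⟨hT, hne⟩)
    obtain ⟨hy1, hy2⟩ := Finset.mem_sdiff.mp hy
    obtain ⟨z, hz, hzy⟩ := mem_dil.mp hy1
    have hzy' : A z y := hzy.resolve_left fun e => hy2 (e ▸ hz)
    have h1 : cnt A' + cnt (fun x' y' => x' = z ∧ y' ∈ ({y} : Finset V)) ≤ cnt A := by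
      refine add_le_cnt (fun _ _ h => h.1) ?_ ?_
      · rintro x' y' ⟨rfl, h⟩
        rw [Finset.mem_singleton.mp h]
        exact hzy'
      · rintro x' y' h ⟨rfl, h'⟩
        rw [Finset.mem_singleton.mp h'] at h
        exact h.2 ⟨hz, hy2, hyT⟩
    rw [cnt_row, Finset.card_singleton] at h1
    omega
  obtain ⟨v, hv⟩ := ih A' (fun u v h1 h2 => hA u v h1.1 h2.1) hlt
  apply hno v
  unfold Sey at hv ⊢
  by_cases hvS : v ∈ S
  · let Tv := univ.filter fun y => A v y ∧ y ∉ S ∧ y ∉ T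
    let Z := dil A Tv \ (S ∪ dil A T)
    have hTv : ∀ y, y ∈ Tv ↔ A v y ∧ y ∉ S ∧ y ∉ T := by simp [Tv]
    have h1 := hmin (T ∪ Tv) (by
      intro y hy
      rcases Finset.mem_union.mp hy with hy | hy
      · exact hT hy
      · rw [hTv] at hy
        exact Finset.mem_sdiff.mpr ⟨mem_dil.mpr ⟨v, hvS, Or.inr hy.1⟩, hy.2.1⟩)
    rw [Finset.card_union_of_disjoint (Finset.disjoint_left.mpr fun y h1 h2 =>
      ((hTv y).mp h2).2.2 h1)] at h1
    have h2 : dil A (T ∪ Tv) \ S ⊆ (dil A T \ S) ∪ Z := by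
      intro y hy
      simp only [Finset.mem_sdiff, Finset.mem_union, mem_dil, Z] at hy ⊢
      obtain ⟨⟨z, hz, hzy⟩, hyS⟩ := hy
      by_cases hc : ∃ z ∈ T, z = y ∨ A z y
      · exact Or.inl ⟨hc, hyS⟩
      · rcases hz with hz | hz
        · exact absurd ⟨z, hz, hzy⟩ hc
        · exact Or.inr ⟨⟨z, hz, hzy⟩, fun h => h.elim hyS hc⟩
    have h3 := (Finset.card_le_card h2).trans (Finset.card_union_le _ _)
    have h4 : (univ.filter fun u => A v u) ⊆ (univ.filter fun u => A' v u) ∪ Tv := by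
      intro y hy
      simp only [Finset.mem_filter, Finset.mem_univ, true_and, Finset.mem_union, hTv, A'] at hy ⊢
      by_cases hc : y ∉ S ∧ y ∉ T
      · exact Or.inr ⟨hy, hc⟩
      · exact Or.inl ⟨hy, fun h => hc h.2⟩
    have h5 := (Finset.card_le_card h4).trans (Finset.card_union_le _ _)
    have h6 : Disjoint (univ.filter fun w => w ≠ v ∧ ¬ A' v w ∧ ∃ u, A' v u ∧ A' u w) Z := by
      rw [Finset.disjoint_left]
      intro w hw hZ
      simp only [Finset.mem_filter, Finset.mem_univ, true_and, Finset.mem_sdiff, Finset.mem_union,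
        mem_dil, Z, A'] at hw hZ
      obtain ⟨_, _, u, ⟨hvu, h7⟩, huw, h8⟩ := hw
      apply hZ.2
      by_cases hwS : w ∈ S
      · exact Or.inl hwS
      · right
        by_cases huS : u ∈ S
        · exact ⟨w, by_contra fun hc => h8 ⟨huS, hwS, hc⟩, Or.inl rfl⟩
        · exact ⟨u, by_contra fun hc => h7 ⟨hvS, huS, hc⟩, Or.inr huw⟩
    have h7 : (univ.filter fun w => w ≠ v ∧ ¬ A' v w ∧ ∃ u, A' v u ∧ A' u w) ∪ Z ⊆
        (univ.filter fun w => w ≠ v ∧ ¬ A v w ∧ ∃ u, A v u ∧ A u w) ∪ Tv := by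
      intro w hw
      by_cases hwT : w ∈ Tv
      · exact Finset.mem_union_right _ hwT
      · apply Finset.mem_union_left
        simp only [Finset.mem_filter, Finset.mem_univ, true_and, Finset.mem_sdiff,
          Finset.mem_union, mem_dil, Z, A', hTv] at hw hwT ⊢
        rcases hw with ⟨k1, k2, u, k3, k4⟩ | ⟨⟨z, hz, hzw⟩, k2⟩
        · exact ⟨k1, fun e => k2 ⟨e, fun e' => hwT ⟨e, e'.2⟩⟩, u, k3.1, k4.1⟩
        · have hwS : w ∉ S := fun h => k2 (Or.inl h)
          have hwT' : w ∉ T := fun h => k2 (Or.inr ⟨w, h, Or.inl rfl⟩)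
          refine ⟨fun e => hwS (e ▸ hvS), fun e => hwT ⟨e, hwS, hwT'⟩, z, hz.1, ?_⟩
          exact hzw.resolve_left fun e => hwT (e ▸ hz)
    have h8 := (Finset.card_le_card h7).trans (Finset.card_union_le _ _)
    rw [Finset.card_union_of_disjoint h6] at h8
    have hv' : (univ.filter fun u => A' v u).card ≤
        (univ.filter fun w => w ≠ v ∧ ¬ A' v w ∧ ∃ u, A' v u ∧ A' u w).card := by convert hv
    omega
  · refine le_trans (le_trans (Finset.card_le_card ?_) hv) (Finset.card_le_card ?_)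
    · intro y hy
      simp only [Finset.mem_filter, Finset.mem_univ, true_and, A'] at hy ⊢
      exact ⟨hy, fun h => hvS h.1⟩
    · intro w hw
      simp only [Finset.mem_filter, Finset.mem_univ, true_and, A'] at hw ⊢
      obtain ⟨k1, k2, u, k3, k4⟩ := hw
      exact ⟨k1, fun e => k2 ⟨e, fun h => hvS h.1⟩, u, k3.1, k4.1⟩

open Classical in
theorem concave (A : V → V → Prop) (hA : ∀ u v, A u v → ¬ A v u) (hno : ∀ v, ¬ Sey A v)
    (ih : ∀ A' : V → V → Prop, (∀ u v, A' u v → ¬ A' v u) → cnt A' < cnt A → ∃ v, Sey A' v)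
    (S : Finset V) (hS : (dil A S \ S).Nonempty) :
    (dil A (dil A S) \ dil A S).card < (dil A S \ S).card := by
  by_contra hcon
  obtain ⟨T, hT, hmin⟩ := Finset.exists_min_image (dil A S \ S).powerset
    (fun T => ((dil A T \ S).card : ℤ) - 2 * T.card) ⟨∅, Finset.empty_mem_powerset _⟩
  by_cases hne : T = dil A S \ S
  · refine prune A hA hno ih S ∅ (Finset.empty_subset _) hS.ne_empty.symm fun T' hT' => ?_
    have h1 := hmin T' (Finset.mem_powerset.mpr hT')
    have h2 : (dil A (dil A S) \ dil A S) ∪ (dil A S \ S) ⊆ dil A T \ S := by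
      intro y hy
      rw [hne]
      simp only [Finset.mem_union, Finset.mem_sdiff] at hy ⊢
      rcases hy with ⟨k1, k2⟩ | ⟨k1, k2⟩
      · obtain ⟨z, hz, hzy⟩ := mem_dil.mp k1
        refine ⟨mem_dil.mpr ⟨z, Finset.mem_sdiff.mpr ⟨hz, fun h => k2 ?_⟩, hzy⟩, fun h => k2 ?_⟩
        · exact mem_dil.mpr ⟨z, h, hzy⟩
        · exact mem_dil.mpr ⟨y, h, Or.inl rfl⟩
      · exact ⟨mem_dil.mpr ⟨y, Finset.mem_sdiff.mpr ⟨k1, k2⟩, Or.inl rfl⟩, k2⟩
    have h3 := Finset.card_le_card h2
    rw [Finset.card_union_of_disjoint (Finset.disjoint_left.mpr fun y h1 h2 =>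
      (Finset.mem_sdiff.mp h1).2 (Finset.mem_sdiff.mp h2).1)] at h3
    have h4 : dil A ∅ = ∅ := by simp [dil]
    have h5 : T.card = (dil A S \ S).card := by rw [hne]
    simp only [h4, Finset.empty_sdiff, Finset.card_empty]
    omega
  · refine prune A hA hno ih S T (Finset.mem_powerset.mp hT) hne fun T' hT' => ?_
    have h1 := hmin T' (Finset.mem_powerset.mpr hT')
    omega

open Classical in
theorem cost_eq (A R : V → V → Prop) :
    cost (fun x y => x = y ∨ A x y) R =
      ∑ x, (dil A (univ.filter (R x)) \ univ.filter (R x)).card := by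
  rw [cost, cnt_rows]
  refine Finset.sum_congr rfl fun x _ => ?_
  congr 1
  ext y
  refine (@Finset.mem_filter _ _ (_) _ _).trans ?_
  simp [mem_dil, nxt]

open Classical in
theorem cost_nxt (A : V → V → Prop) (hA : ∀ u v, A u v → ¬ A v u) (hno : ∀ v, ¬ Sey A v)
    (ih : ∀ A' : V → V → Prop, (∀ u v, A' u v → ¬ A' v u) → cnt A' < cnt A → ∃ v, Sey A' v)
    (R : V → V → Prop) (hR : 0 < cost (fun x y => x = y ∨ A x y) R) :
    cost (fun x y => x = y ∨ A x y) (nxt (fun x y => x = y ∨ A x y) R) <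
      cost (fun x y => x = y ∨ A x y) R := by
  rw [cost_eq] at hR
  rw [cost_eq, cost_eq]
  have e : ∀ x, univ.filter (nxt (fun x y => x = y ∨ A x y) R x) = dil A (univ.filter (R x)) := by
    intro x
    ext y
    simp [mem_dil, nxt]
  simp only [e]
  apply Finset.sum_lt_sum
  · intro x _
    by_cases hc : (dil A (univ.filter (R x)) \ univ.filter (R x)).Nonempty
    · exact (concave A hA hno ih _ hc).le
    · rw [Finset.not_nonempty_iff_eq_empty, Finset.sdiff_eq_empty_iff_subset] at hc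
      have : dil A (dil A (univ.filter (R x))) \ dil A (univ.filter (R x)) = ∅ := by
        rw [Finset.sdiff_eq_empty_iff_subset]
        intro y hy
        obtain ⟨z, hz, hzy⟩ := mem_dil.mp hy
        exact mem_dil.mpr ⟨z, hc hz, hzy⟩
      rw [this]
      exact Nat.zero_le _
  · obtain ⟨x, _, hx⟩ := Finset.exists_ne_zero_of_sum_ne_zero hR.ne'
    exact ⟨x, Finset.mem_univ _, concave A hA hno ih _ (Finset.card_ne_zero.mp hx)⟩

open Classical in
theorem cost_pos [Nonempty V] (A : V → V → Prop) (hA : ∀ u v, A u v → ¬ A v u)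
    (hno : ∀ v, ¬ Sey A v) (R S : V → V → Prop) (h : Adm (fun x y => x = y ∨ A x y) R S) :
    0 < cost (fun x y => x = y ∨ A x y) R := by
  by_contra h0
  have hcl : ∀ x z y, R x z → A z y → R x y := by
    intro x z y h1 h2
    by_contra h3
    apply h0
    have := cnt_mono (P := fun x' y' => x' = x ∧ y' ∈ ({y} : Finset V))
      (Q := fun x y => nxt (fun x y => x = y ∨ A x y) R x y ∧ ¬ R x y) (by
        rintro x' y' ⟨rfl, h'⟩
        rw [Finset.mem_singleton.mp h']
        exact ⟨⟨z, h1, Or.inr h2⟩, h3⟩)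
    rw [cnt_row, Finset.card_singleton] at this
    exact this
  obtain ⟨C, hC, hmin⟩ := Finset.exists_min_image
    (univ.filter fun C : Finset V => C.Nonempty ∧ ∀ x ∈ C, ∀ y, A x y → y ∈ C) Finset.card
    ⟨univ, by simp⟩
  obtain ⟨⟨x, hx⟩, hC2⟩ := (Finset.mem_filter.mp hC).2
  obtain ⟨y, hxy⟩ : ∃ y, A x y := by
    by_contra hn
    apply hno x
    unfold Sey
    rw [Finset.filter_eq_empty_iff.mpr fun y _ hy => hn ⟨y, hy⟩]
    exact Nat.zero_le _
  have h1 := hmin (C.filter (R y)) (Finset.mem_filter.mpr ⟨Finset.mem_univ _,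
    ⟨y, Finset.mem_filter.mpr ⟨hC2 x hx y hxy, h.1 y⟩⟩, fun a ha b hab =>
      Finset.mem_filter.mpr ⟨hC2 a (Finset.mem_filter.mp ha).1 b hab,
        hcl y a b (Finset.mem_filter.mp ha).2 hab⟩⟩)
  have h2 := Finset.eq_of_subset_of_card_le (Finset.filter_subset (R y) C) h1
  have h3 : R y x := (Finset.mem_filter.mp (h2.symm ▸ hx : x ∈ C.filter (R y))).2
  have h4 : y = x := h.2.2 y x ⟨x, h3, Or.inl rfl⟩ ⟨x, h.2.1 x, Or.inr hxy⟩
  subst h4
  exact hA y y hxy hxy

theorem exists_sey [Nonempty V] (m : ℕ) : ∀ A : V → V → Prop, (∀ u v, A u v → ¬ A v u) →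
    cnt A = m → ∃ v, Sey A v := by
  induction m using Nat.strong_induction_on with
  | _ m ih =>
    intro A hA hm
    by_contra hno
    have hno' : ∀ v, ¬ Sey A v := fun v hv => hno ⟨v, hv⟩
    have ih' : ∀ A' : V → V → Prop, (∀ u v, A' u v → ¬ A' v u) → cnt A' < cnt A →
        ∃ v, Sey A' v := fun A' h1 h2 => ih _ (hm ▸ h2) A' h1 rfl
    have hG : ∀ x, (fun x y => x = y ∨ A x y) x x := fun x => Or.inl rfl
    have hanti : ∀ x y, (fun x y => x = y ∨ A x y) x y → (fun x y => x = y ∨ A x y) y x →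
        x = y := by
      rintro x y (h1 | h1) (h2 | h2)
      · exact h1
      · exact h1
      · exact h2.symm
      · exact absurd h2 (hA x y h1)
    obtain ⟨R, S, h⟩ := exists_extr (fun x y => x = y ∨ A x y) (fun _ _ => True)
      (fun _ _ => True) hanti (fun _ => trivial) (fun _ => trivial)
    obtain ⟨R2, S2, h1, h2⟩ := descent (fun x y => x = y ∨ A x y)
      (nxt (fun x y => x = y ∨ A x y) R) (nxt (fun x y => x = y ∨ A x y) S) hG hanti
      (fun x y hxy => ⟨x, h.1.1 x, hxy⟩) (fun x y hxy => ⟨x, h.1.2.1 x, hxy⟩) h.1.2.2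
    have h3 := h.2.2.2 R2 S2 h1 (fun _ _ _ => trivial) (fun _ _ _ => trivial)
    have h4 := cost_nxt A hA hno' ih' R (cost_pos A hA hno' R S h.1)
    have h5 := cost_nxt A hA hno' ih' S (cost_pos A hA hno' S R h.1.symm)
    omega

end Vale.Agent.P038
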