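import Mathlib

/-!
Linear algebra for the second neighbourhood theorem: a generic matrix supported on a relation
and the rank inequality coming from a commuting square of such matrices.
-/

namespace Vale.Agent.P038

open Finset Matrix

theorem rank_eq_card_of_mulVec {K m n : Type*} [Field K] [Fintype m] [Fintype n]
    (Q : Matrix m n K) (hQ : ∀ v, Q *ᵥ v = 0 → v = 0) : Q.rank = Fintype.card n := by
  have hinj : Function.Injective Q.mulVecLin := by
    rw [← LinearMap.ker_eq_bot, LinearMap.ker_eq_bot']
    intro v hv
    exact hQ v hv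
  unfold Matrix.rank
  rw [LinearMap.finrank_range_of_inj hinj]
  simp

theorem card_le_of_square {K i k m n : Type*} [Field K] [Fintype i] [Fintype k] [Fintype m]
    [Fintype n] (P : Matrix i n K) (Q : Matrix n k K) (P' : Matrix i m K) (Q' : Matrix m k K)
    (h : P * Q = P' * Q') (hP : ∀ v, v ᵥ* P = 0 → v = 0) (hQ : ∀ v, Q *ᵥ v = 0 → v = 0) :
    Fintype.card i + Fintype.card k ≤ Fintype.card n + Fintype.card m := by
  classical
  have h0 : Matrix.fromCols P (-P') * Matrix.fromRows Q Q' = 0 := by
    rw [Matrix.fromCols_mul_fromRows, h, Matrix.neg_mul, add_neg_cancel]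
  have h1 := Matrix.rank_add_rank_le_card_of_mul_eq_zero h0
  have h2 : (Matrix.fromRows Q Q').rank = Fintype.card k := by
    apply rank_eq_card_of_mulVec
    intro v hv
    apply hQ
    ext j
    have := congrFun hv (Sum.inl j)
    simpa [Matrix.mulVec, dotProduct] using this
  have h3 : (Matrix.fromCols P (-P')).rank = Fintype.card i := by
    rw [← Matrix.rank_transpose]
    apply rank_eq_card_of_mulVec
    intro v hv
    apply hP
    ext j
    have := congrFun hv (Sum.inl j)
    simpa [Matrix.mulVec, Matrix.vecMul, dotProduct, mul_comm] using this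
  rw [h2, h3, Fintype.card_sum] at h1
  exact h1

/-- The field of rational functions in one variable for each ordered pair of vertices. -/
abbrev GK (V : Type*) := FractionRing (MvPolynomial (V × V) ℚ)

open Classical in
/-- The generic matrix supported on the relation `G`. -/
noncomputable def gen {V : Type*} (G : V → V → Prop) (u x : V) : GK V :=
  if G u x then algebraMap (MvPolynomial (V × V) ℚ) (GK V) (MvPolynomial.X (u, x)) else 0

theorem gen_eq_zero {V : Type*} {G : V → V → Prop} {u x : V} (h : ¬ G u x) : gen G u x = 0 := by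
  simp [gen, h]

open Classical in
theorem gen_inj {V : Type*} [Fintype V] (G : V → V → Prop) (A T : Finset V)
    (hall : ∀ A' ⊆ A, A'.card ≤ (T.filter (fun t => ∃ z ∈ A', G z t)).card)
    (v : V → GK V) (hv : ∀ z, z ∉ A → v z = 0) (hT : ∀ t ∈ T, ∑ z, v z * gen G z t = 0) :
    v = 0 := by
  obtain ⟨f, hf, hfT⟩ := (Finset.all_card_le_biUnion_card_iff_exists_injective
    (fun z : A => T.filter (fun t => G z t))).mp (by
      intro s
      have h1 := hall (s.map (Function.Embedding.subtype _)) (by
        intro z hz
        obtain ⟨y, _, rfl⟩ := Finset.mem_map.mp hz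
        exact y.2)
      rw [Finset.card_map] at h1
      refine h1.trans (Finset.card_le_card ?_)
      intro t ht
      simp only [Finset.mem_filter, Finset.mem_map, Finset.mem_biUnion] at ht ⊢
      obtain ⟨htT, z, ⟨y, hy, rfl⟩, hG⟩ := ht
      exact ⟨y, hy, htT, hG⟩)
  let N : Matrix A A (MvPolynomial (V × V) ℚ) :=
    Matrix.of fun z z' => if G z (f z') then MvPolynomial.X ((z : V), f z') else 0
  let e : V × V → ℚ := fun p => if ∃ h : p.1 ∈ A, p.2 = f ⟨p.1, h⟩ then 1 else 0
  have hN : (MvPolynomial.eval e).mapMatrix N = 1 := by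
    ext z z'
    simp only [RingHom.mapMatrix_apply, Matrix.map_apply, N, Matrix.of_apply]
    by_cases hzz : z = z'
    · subst hzz
      have := (Finset.mem_filter.mp (hfT z)).2
      simp [this, e]
    · rw [Matrix.one_apply_ne hzz]
      split_ifs with hG
      · have : ¬ (f z' = f z) := fun h => hzz (hf h).symm
        simp [e, this]
      · simp
  have hdet : N.det ≠ 0 := by
    intro h0
    have := RingHom.map_det (MvPolynomial.eval e) N
    rw [h0, hN] at this
    simp at this
  let N' : Matrix A A (GK V) := (algebraMap (MvPolynomial (V × V) ℚ) (GK V)).mapMatrix N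
  have hdet' : N'.det ≠ 0 := by
    rw [← RingHom.map_det]
    intro h0
    exact hdet ((IsFractionRing.injective (MvPolynomial (V × V) ℚ) (GK V)) (by simpa using h0))
  have hz : (fun z : A => v z) ᵥ* N' = 0 := by
    ext z'
    have h1 := hT (f z') (Finset.mem_filter.mp (hfT z')).1
    rw [← Finset.sum_subset (Finset.subset_univ A) (by
      intro z _ hz
      simp [hv z hz]), ← Finset.sum_coe_sort] at h1
    simp only [Matrix.vecMul, dotProduct, Pi.zero_apply]
    rw [← h1]
    refine Finset.sum_congr rfl fun z _ => ?_
    congr 1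
    simp only [N', N, RingHom.mapMatrix_apply, Matrix.map_apply, gen, Matrix.of_apply]
    split_ifs <;> simp
  have hv0 := Matrix.eq_zero_of_vecMul_eq_zero hdet' hz
  ext z
  by_cases hzA : z ∈ A
  · exact congrFun hv0 ⟨z, hzA⟩
  · exact hv z hzA

end Vale.Agent.P038
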